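import Mathlib

open MeasureTheory
open scoped ENNReal NNReal

namespace Vale.Agent.Lib.P074

/-- The uniform probability measure on `K`: normalized Lebesgue measure restricted to `K`. -/
noncomputable def uniformProb {d : ℕ} (K : Set (EuclideanSpace ℝ (Fin d))) :
    Measure (EuclideanSpace ℝ (Fin d)) :=
  (volume K)⁻¹ • volume.restrict K

/-- The quadratic transport cost of the map `T` from `ρ`: the integral of `|x - T x|^2`. -/
noncomputable def quadCost {d : ℕ} (ρ : Measure (EuclideanSpace ℝ (Fin d)))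
    (T : EuclideanSpace ℝ (Fin d) → EuclideanSpace ℝ (Fin d)) : ℝ≥0∞ :=
  ∫⁻ x, ENNReal.ofReal (‖x - T x‖ ^ 2) ∂ρ

/-- `T` is a quadratic optimal transport map from `ρ` to `μ`: a Borel map pushing `ρ` to `μ`
which minimizes the quadratic cost among all Borel maps pushing `ρ` to `μ`. -/
def IsOptimalMap {d : ℕ} (ρ μ : Measure (EuclideanSpace ℝ (Fin d)))
    (T : EuclideanSpace ℝ (Fin d) → EuclideanSpace ℝ (Fin d)) : Prop :=
  Measurable T ∧ ρ.map T = μ ∧
    ∀ S : EuclideanSpace ℝ (Fin d) → EuclideanSpace ℝ (Fin d),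
      Measurable S → ρ.map S = μ → quadCost ρ T ≤ quadCost ρ S

/-- The quadratic Wasserstein distance: square root of the infimum, over couplings `π` of `μ` and
`ν`, of the integral of `|y - z|^2`. -/
noncomputable def W2 {d : ℕ} (μ ν : Measure (EuclideanSpace ℝ (Fin d))) : ℝ≥0∞ :=
  (⨅ (π : Measure (EuclideanSpace ℝ (Fin d) × EuclideanSpace ℝ (Fin d)))
      (_ : π.map Prod.fst = μ ∧ π.map Prod.snd = ν),
      ∫⁻ z, ENNReal.ofReal (‖z.1 - z.2‖ ^ 2) ∂π) ^ (1 / 2 : ℝ)

/-- The `L^2(ρ)` distance between two maps. -/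
noncomputable def L2Dist {d : ℕ} (ρ : Measure (EuclideanSpace ℝ (Fin d)))
    (S T : EuclideanSpace ℝ (Fin d) → EuclideanSpace ℝ (Fin d)) : ℝ≥0∞ :=
  (∫⁻ x, ENNReal.ofReal (‖S x - T x‖ ^ 2) ∂ρ) ^ (1 / 2 : ℝ)

/-- The exponent `α` is admissible in dimension `d`: for every compact convex `K` with nonempty
interior and every nonempty compact `Y` there is a finite constant `C` such that
`‖T_μ - T_ν‖_{L^2(ρ)} ≤ C * W_2(μ, ν)^α` for all Borel probability measures `μ, ν` supported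
in `Y`, where `ρ` is the uniform probability measure on `K` and `T_μ, T_ν` are optimal maps. -/
def Admissible (d : ℕ) (α : ℝ) : Prop :=
  ∀ K : Set (EuclideanSpace ℝ (Fin d)), IsCompact K → Convex ℝ K → (interior K).Nonempty →
  ∀ Y : Set (EuclideanSpace ℝ (Fin d)), IsCompact Y → Y.Nonempty →
  ∃ C : ℝ≥0, ∀ μ ν : Measure (EuclideanSpace ℝ (Fin d)),
    IsProbabilityMeasure μ → IsProbabilityMeasure ν → μ Yᶜ = 0 → ν Yᶜ = 0 →
    ∀ Tμ Tν : EuclideanSpace ℝ (Fin d) → EuclideanSpace ℝ (Fin d),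
      IsOptimalMap (uniformProb K) μ Tμ → IsOptimalMap (uniformProb K) ν Tν →
      L2Dist (uniformProb K) Tμ Tν ≤ C * W2 μ ν ^ α

end Vale.Agent.Lib.P074
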