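import Mathlib
import Vale.Agent.Lib.P074.Defs

open MeasureTheory
open scoped ENNReal NNReal

namespace Vale.Agent.Lib.P074

variable {d : ℕ}


/-- Threshold two-point maps are optimal. -/
theorem isOptimal_two_point (ρ : Measure (EuclideanSpace ℝ (Fin d))) [IsFiniteMeasure ρ]
    (a b : EuclideanSpace ℝ (Fin d)) (t : ℝ) :
    IsOptimalMap ρ (ρ.map (fun x => if t ≤ inner ℝ (b - a) x then b else a))
      (fun x => if t ≤ inner ℝ (b - a) x then b else a) := by
  classical
  set T : EuclideanSpace ℝ (Fin d) → EuclideanSpace ℝ (Fin d) :=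
    fun x => if t ≤ inner ℝ (b - a) x then b else a with hT
  have hset : MeasurableSet {x : EuclideanSpace ℝ (Fin d) | t ≤ inner ℝ (b - a) x} :=
    measurableSet_le measurable_const (by fun_prop)
  have hTm : Measurable T := Measurable.ite hset measurable_const measurable_const
  refine ⟨hTm, rfl, ?_⟩
  intro S hS hSmap
  -- the dual potential
  set τ : ℝ := 2 * t + ‖a‖ ^ 2 - ‖b‖ ^ 2 with hτ
  set g : EuclideanSpace ℝ (Fin d) → ℝ≥0∞ :=
    fun y => if y = b then ENNReal.ofReal (-τ) else ENNReal.ofReal τ with hg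
  have hgm : Measurable g :=
    Measurable.ite (measurableSet_singleton b) measurable_const measurable_const
  -- S takes values in {a, b} almost everywhere
  have hSae : ∀ᵐ x ∂ρ, S x = a ∨ S x = b := by
    have hTset : MeasurableSet ({a, b} : Set (EuclideanSpace ℝ (Fin d)))ᶜ :=
      ((measurableSet_singleton b).insert a).compl
    have h1 : ρ (S ⁻¹' ({a, b} : Set (EuclideanSpace ℝ (Fin d)))ᶜ) = 0 := by
      rw [← Measure.map_apply hS hTset, hSmap, Measure.map_apply hTm hTset]
      have : T ⁻¹' ({a, b} : Set (EuclideanSpace ℝ (Fin d)))ᶜ = ∅ := by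
        ext x
        simp only [Set.mem_preimage, Set.mem_compl_iff, Set.mem_insert_iff,
          Set.mem_singleton_iff, Set.mem_empty_iff_false, iff_false, not_not, hT]
        split_ifs <;> simp
      rw [this, measure_empty]
    rw [ae_iff]
    convert h1 using 2
    ext x
    simp
  have hkey : ∀ᵐ x ∂ρ, ENNReal.ofReal (‖x - T x‖ ^ 2) + g (S x) ≤
      ENNReal.ofReal (‖x - S x‖ ^ 2) + g (T x) := by
    filter_upwards [hSae] with x hx
    have hdist : ‖x - a‖ ^ 2 - ‖x - b‖ ^ 2 = 2 * inner ℝ (b - a) x + ‖a‖ ^ 2 - ‖b‖ ^ 2 := by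
      rw [norm_sub_sq_real x a, norm_sub_sq_real x b, inner_sub_left,
        real_inner_comm a x, real_inner_comm b x]
      ring
    have hnn : ∀ u v w z : ℝ, 0 ≤ u → 0 ≤ w →
        u + max v 0 ≤ w + max z 0 →
        ENNReal.ofReal u + ENNReal.ofReal v ≤ ENNReal.ofReal w + ENNReal.ofReal z := by
      intro u v w z hu hw h
      have e0 : ∀ s : ℝ, ENNReal.ofReal s = ENNReal.ofReal (max s 0) := by
        intro s
        rcases le_total s 0 with h | h
        · rw [max_eq_right h, ENNReal.ofReal_of_nonpos h]; simp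
        · rw [max_eq_left h]
      have e1 := e0 v
      have e2 := e0 z
      rw [e1, e2, ← ENNReal.ofReal_add hu (le_max_right _ _),
        ← ENNReal.ofReal_add hw (le_max_right _ _)]
      exact ENNReal.ofReal_le_ofReal h
    have hτmax : max τ 0 - max (-τ) 0 = τ := by
      rcases le_total τ 0 with h | h
      · rw [max_eq_right h, max_eq_left (by linarith)]; ring
      · rw [max_eq_left h, max_eq_right (by linarith)]; ring
    by_cases hab : a = b
    · subst hab
      have h1 : T x = a := by simp [hT]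
      rcases hx with hx | hx <;> simp [h1, hx]
    by_cases htx : t ≤ inner ℝ (b - a) x
    · have h1 : T x = b := by simp [hT, htx]
      rcases hx with hx | hx
      · rw [h1, hx]
        have h2 : g a = ENNReal.ofReal τ := by simp [hg, hab]
        have h3 : g b = ENNReal.ofReal (-τ) := by simp [hg]
        rw [h2, h3]
        apply hnn _ _ _ _ (by positivity) (by positivity)
        nlinarith
      · rw [h1, hx]
    · have h1 : T x = a := by simp [hT, htx]
      rcases hx with hx | hx
      · rw [h1, hx]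
      · rw [h1, hx]
        have h2 : g a = ENNReal.ofReal τ := by simp [hg, hab]
        have h3 : g b = ENNReal.ofReal (-τ) := by simp [hg]
        rw [h2, h3]
        apply hnn _ _ _ _ (by positivity) (by positivity)
        push Not at htx
        nlinarith
  -- integrate
  have hA : ∫⁻ x, g (S x) ∂ρ = ∫⁻ x, g (T x) ∂ρ := by
    rw [← lintegral_map hgm hS, hSmap, lintegral_map hgm hTm]
  have hfin : ∫⁻ x, g (T x) ∂ρ ≠ ∞ := by
    have hle : ∀ x, g (T x) ≤ ENNReal.ofReal τ + ENNReal.ofReal (-τ) := by
      intro x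
      by_cases h : T x = b
      · simp [hg, h]
      · simp [hg, h]
    have : ∫⁻ x, g (T x) ∂ρ ≤ ∫⁻ _, (ENNReal.ofReal τ + ENNReal.ofReal (-τ)) ∂ρ :=
      lintegral_mono hle
    rw [lintegral_const] at this
    exact ne_top_of_le_ne_top (ENNReal.mul_ne_top (by simp) (measure_ne_top _ _)) this
  have hint := lintegral_mono_ae hkey
  have e1 : ∫⁻ x, ENNReal.ofReal (‖x - T x‖ ^ 2) + g (S x) ∂ρ =
      quadCost ρ T + ∫⁻ x, g (S x) ∂ρ := by
    exact lintegral_add_right _ (hgm.comp hS)
  have e2 : ∫⁻ x, ENNReal.ofReal (‖x - S x‖ ^ 2) + g (T x) ∂ρ =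
      quadCost ρ S + ∫⁻ x, g (T x) ∂ρ := by
    exact lintegral_add_right _ (hgm.comp hTm)
  rw [e1, e2, hA] at hint
  exact ENNReal.le_of_add_le_add_right hfin hint


/-- Volume of a coordinate box in Euclidean space. -/
theorem volume_box (lo hi : Fin d → ℝ) :
    volume {x : EuclideanSpace ℝ (Fin d) | ∀ i, lo i ≤ x i ∧ x i ≤ hi i} =
      ∏ i, ENNReal.ofReal (hi i - lo i) := by
  have h : {x : EuclideanSpace ℝ (Fin d) | ∀ i, lo i ≤ x i ∧ x i ≤ hi i} =
      WithLp.ofLp ⁻¹' (Set.Icc lo hi) := by
    ext x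
    simp [Set.mem_Icc, Pi.le_def, forall_and]
  rw [h, (PiLp.volume_preserving_ofLp (Fin d)).measure_preimage
    measurableSet_Icc.nullMeasurableSet, Real.volume_Icc_pi]

/-- The unit cube of Euclidean space. -/
def cube (d : ℕ) : Set (EuclideanSpace ℝ (Fin d)) := {x | ∀ i, 0 ≤ x i ∧ x i ≤ 1}

theorem measurableSet_cube : MeasurableSet (cube d) := by
  have h : cube d = WithLp.ofLp ⁻¹' (Set.Icc (0 : Fin d → ℝ) 1) := by
    ext x
    simp [cube, Set.mem_Icc, Pi.le_def, forall_and]
  rw [h]
  exact (PiLp.volume_preserving_ofLp (Fin d)).measurable measurableSet_Icc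

theorem volume_cube : volume (cube d) = 1 := by
  have := volume_box (d := d) (fun _ => 0) (fun _ => 1)
  simpa [cube] using this

theorem isCompact_cube : IsCompact (cube d) := by
  have h : cube d = WithLp.toLp 2 '' (Set.Icc (0 : Fin d → ℝ) 1) := by
    ext x
    constructor
    · intro hx
      refine ⟨WithLp.ofLp x, ?_, by simp⟩
      simp only [Set.mem_Icc, Pi.le_def]
      exact ⟨fun i => (hx i).1, fun i => (hx i).2⟩
    · rintro ⟨y, hy, rfl⟩ i
      exact ⟨hy.1 i, hy.2 i⟩
  rw [h]
  exact isCompact_Icc.image (PiLp.continuous_toLp 2 _)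

theorem convex_cube : Convex ℝ (cube d) := by
  intro x hx y hy a b ha hb hab i
  have h1 := hx i
  have h2 := hy i
  simp only [PiLp.add_apply, PiLp.smul_apply, smul_eq_mul]
  constructor
  · nlinarith [h1.1, h2.1]
  · nlinarith [h1.2, h2.2]

theorem interior_cube_nonempty : (interior (cube d)).Nonempty := by
  have hopen : IsOpen {x : EuclideanSpace ℝ (Fin d) | ∀ i, 0 < x i ∧ x i < 1} := by
    have : {x : EuclideanSpace ℝ (Fin d) | ∀ i, 0 < x i ∧ x i < 1} =
        ⋂ i, ({x | 0 < x i} ∩ {x | x i < 1}) := by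
      ext x
      simp
    rw [this]
    refine isOpen_iInter_of_finite fun i => IsOpen.inter ?_ ?_
    · exact isOpen_lt continuous_const (by fun_prop)
    · exact isOpen_lt (by fun_prop) continuous_const
  refine ⟨WithLp.toLp 2 (fun _ => 1 / 2), interior_maximal ?_ hopen ?_⟩
  · intro x hx i
    exact ⟨(hx i).1.le, (hx i).2.le⟩
  · intro i
    simp only []
    norm_num

theorem uniformProb_cube : uniformProb (cube d) = volume.restrict (cube d) := by
  simp [uniformProb, volume_cube]

instance isProb_uniformCube : IsProbabilityMeasure (uniformProb (cube d)) := by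
  rw [uniformProb_cube]
  constructor
  rw [Measure.restrict_apply_univ, volume_cube]

/-- Two threshold maps with sets of equal mass have equal pushforwards. -/
theorem map_ite_eq (ρ : Measure (EuclideanSpace ℝ (Fin d))) [IsProbabilityMeasure ρ]
    (P P' : EuclideanSpace ℝ (Fin d) → Prop) [DecidablePred P] [DecidablePred P']
    (hH : MeasurableSet {x | P x}) (hH' : MeasurableSet {x | P' x})
    (hm : ρ {x | P x} = ρ {x | P' x})
    (u v : EuclideanSpace ℝ (Fin d)) :
    ρ.map (fun x => if P x then u else v) = ρ.map (fun x => if P' x then u else v) := by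
  have hm1 : Measurable (fun x => if P x then u else v) :=
    Measurable.ite hH measurable_const measurable_const
  have hm2 : Measurable (fun x => if P' x then u else v) :=
    Measurable.ite hH' measurable_const measurable_const
  have hc : ρ {x | P x}ᶜ = ρ {x | P' x}ᶜ := by
    rw [prob_compl_eq_one_sub hH, prob_compl_eq_one_sub hH', hm]
  ext s hs
  rw [Measure.map_apply hm1 hs, Measure.map_apply hm2 hs]
  by_cases hu : u ∈ s <;> by_cases hv : v ∈ s
  · have e1 : (fun x => if P x then u else v) ⁻¹' s = Set.univ := by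
      ext x; by_cases h : P x <;> simp [h, hu, hv]
    have e2 : (fun x => if P' x then u else v) ⁻¹' s = Set.univ := by
      ext x; by_cases h : P' x <;> simp [h, hu, hv]
    rw [e1, e2]
  · have e1 : (fun x => if P x then u else v) ⁻¹' s = {x | P x} := by
      ext x; by_cases h : P x <;> simp [h, hu, hv]
    have e2 : (fun x => if P' x then u else v) ⁻¹' s = {x | P' x} := by
      ext x; by_cases h : P' x <;> simp [h, hu, hv]
    rw [e1, e2, hm]
  · have e1 : (fun x => if P x then u else v) ⁻¹' s = {x | P x}ᶜ := by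
      ext x; by_cases h : P x <;> simp [h, hu, hv]
    have e2 : (fun x => if P' x then u else v) ⁻¹' s = {x | P' x}ᶜ := by
      ext x; by_cases h : P' x <;> simp [h, hu, hv]
    rw [e1, e2, hc]
  · have e1 : (fun x => if P x then u else v) ⁻¹' s = ∅ := by
      ext x; by_cases h : P x <;> simp [h, hu, hv]
    have e2 : (fun x => if P' x then u else v) ⁻¹' s = ∅ := by
      ext x; by_cases h : P' x <;> simp [h, hu, hv]
    rw [e1, e2]

/-- Mass of a top slab of the cube. -/
theorem mass_slab {i₁ : Fin d} {q : ℝ} (hq1 : q ≤ 1) :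
    uniformProb (cube d) {x : EuclideanSpace ℝ (Fin d) | 1 - q ≤ x i₁} = ENNReal.ofReal q := by
  classical
  have hmeas : MeasurableSet {x : EuclideanSpace ℝ (Fin d) | 1 - q ≤ x i₁} :=
    measurableSet_le measurable_const (by fun_prop)
  rw [uniformProb_cube, Measure.restrict_apply hmeas]
  have hset : {x : EuclideanSpace ℝ (Fin d) | 1 - q ≤ x i₁} ∩ cube d =
      {x | ∀ i, (Function.update (0 : Fin d → ℝ) i₁ (1 - q)) i ≤ x i ∧ x i ≤ (1 : Fin d → ℝ) i} := by
    ext x
    simp only [Set.mem_inter_iff, Set.mem_ofPred_eq, cube, Pi.one_apply]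
    constructor
    · rintro ⟨h1, h2⟩ i
      by_cases hi : i = i₁
      · subst hi
        simp only [Function.update_self]
        exact ⟨h1, (h2 i).2⟩
      · simpa [Function.update_of_ne hi] using h2 i
    · intro h
      refine ⟨?_, fun i => ?_⟩
      · simpa using (h i₁).1
      · by_cases hi : i = i₁
        · subst hi
          have := h i
          simp only [Function.update_self] at this
          exact ⟨by linarith [this.1], this.2⟩
        · simpa [Function.update_of_ne hi] using h i
  rw [hset, volume_box, Finset.prod_eq_single i₁]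
  · simp
  · intro i _ hi
    simp [Function.update_of_ne hi]
  · simp

/-- Volume of a box constraining two coordinates of the cube. -/
theorem volume_box_two {i₀ i₁ : Fin d} (hne : i₀ ≠ i₁) (l₀ h₀ l₁ h₁ : ℝ) :
    volume {x : EuclideanSpace ℝ (Fin d) | ∀ i,
      (Function.update (Function.update (0 : Fin d → ℝ) i₀ l₀) i₁ l₁) i ≤ x i ∧
      x i ≤ (Function.update (Function.update (1 : Fin d → ℝ) i₀ h₀) i₁ h₁) i} =
      ENNReal.ofReal (h₀ - l₀) * ENNReal.ofReal (h₁ - l₁) := by
  classical
  rw [volume_box, Finset.prod_eq_mul i₀ i₁ hne]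
  · simp [Function.update_of_ne hne]
  · intro c _ hc
    simp [Function.update_of_ne hc.1, Function.update_of_ne hc.2]
  · simp
  · simp


/-- The two-atom family: a slab and a corner triangle of the cube with equal mass. -/
theorem family (hd : 2 ≤ d) {θ : ℝ} (hθ : 0 < θ) (hθ1 : θ ≤ 1) :
    ∃ (μ ν : Measure (EuclideanSpace ℝ (Fin d)))
      (Tμ Tν : EuclideanSpace ℝ (Fin d) → EuclideanSpace ℝ (Fin d)),
      IsProbabilityMeasure μ ∧ IsProbabilityMeasure ν ∧
      μ (Metric.closedBall 0 2)ᶜ = 0 ∧ ν (Metric.closedBall 0 2)ᶜ = 0 ∧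
      IsOptimalMap (uniformProb (cube d)) μ Tμ ∧ IsOptimalMap (uniformProb (cube d)) ν Tν ∧
      ENNReal.ofReal (θ / 32) ≤ ∫⁻ x, ENNReal.ofReal (‖Tμ x - Tν x‖ ^ 2) ∂(uniformProb (cube d)) ∧
      (⨅ (π : Measure (EuclideanSpace ℝ (Fin d) × EuclideanSpace ℝ (Fin d)))
        (_ : π.map Prod.fst = μ ∧ π.map Prod.snd = ν),
        ∫⁻ z, ENNReal.ofReal (‖z.1 - z.2‖ ^ 2) ∂π) ≤ ENNReal.ofReal (θ ^ 3) := by
  classical
  set ρ := uniformProb (cube d) with hρ
  have hρK : ρ = volume.restrict (cube d) := uniformProb_cube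
  let i₀ : Fin d := ⟨0, by omega⟩
  let i₁ : Fin d := ⟨1, by omega⟩
  have hne : i₀ ≠ i₁ := by simp [i₀, i₁, Fin.ext_iff]
  set e₀ : EuclideanSpace ℝ (Fin d) := EuclideanSpace.single i₀ (1 : ℝ) with he₀
  set b : EuclideanSpace ℝ (Fin d) := EuclideanSpace.single i₁ (1 : ℝ) with hb
  set b' : EuclideanSpace ℝ (Fin d) := b + θ • e₀ with hb'
  have hin0 : ∀ x : EuclideanSpace ℝ (Fin d), inner ℝ (b - 0) x = x i₁ := by
    intro x
    simp [hb, EuclideanSpace.inner_single_left]
  have hin1 : ∀ x : EuclideanSpace ℝ (Fin d), inner ℝ (b' - 0) x = x i₁ + θ * x i₀ := by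
    intro x
    simp [hb', hb, he₀, inner_add_left, inner_smul_left, EuclideanSpace.inner_single_left]
  have hnb : ‖b‖ = 1 := by simp [hb]
  have hne₀ : ‖e₀‖ = 1 := by simp [he₀]
  have hnb'2 : ‖b'‖ ≤ 2 := by
    calc ‖b'‖ ≤ ‖b‖ + ‖θ • e₀‖ := norm_add_le _ _
      _ = 1 + θ := by rw [hnb, norm_smul, hne₀, Real.norm_of_nonneg hθ.le]; ring
      _ ≤ 2 := by linarith
  have hnb'1 : 1 ≤ ‖b'‖ := by
    have h := PiLp.norm_apply_le b' i₁
    have h2 : b' i₁ = 1 := by
      simp [hb', hb, he₀, hne.symm]
    rw [h2] at h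
    simpa using h
  have hbb' : ‖b - b'‖ = θ := by
    have : b - b' = -(θ • e₀) := by rw [hb']; abel
    rw [this, norm_neg, norm_smul, hne₀, Real.norm_of_nonneg hθ.le, mul_one]
  -- the corner triangle
  set H' : Set (EuclideanSpace ℝ (Fin d)) := {x | 1 ≤ inner ℝ (b' - 0) x} with hH'
  have hH'm : MeasurableSet H' := measurableSet_le measurable_const (by fun_prop)
  set p' : ℝ := (ρ H').toReal with hp'
  have hρH'le : ρ H' ≤ ENNReal.ofReal θ := by
    have hsub : H' ∩ cube d ⊆ {x | 1 - θ ≤ x i₁} ∩ cube d := by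
      rintro x ⟨hx, hxK⟩
      refine ⟨?_, hxK⟩
      have h1 : 1 ≤ x i₁ + θ * x i₀ := by
        have := hin1 x
        have hx' : 1 ≤ inner ℝ (b' - 0) x := hx
        rwa [this] at hx'
      have h2 : x i₀ ≤ 1 := (hxK i₀).2
      show 1 - θ ≤ x i₁
      nlinarith
    have hm : MeasurableSet {x : EuclideanSpace ℝ (Fin d) | 1 - θ ≤ x i₁} :=
      measurableSet_le measurable_const (by fun_prop)
    have h3 := mass_slab (d := d) (i₁ := i₁) hθ1
    rw [← hρ] at h3
    rw [← h3, hρK, Measure.restrict_apply hH'm, Measure.restrict_apply hm]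
    exact measure_mono hsub
  have hfinH' : ρ H' ≠ ∞ := measure_ne_top _ _
  have hp'le : p' ≤ θ := by
    have := ENNReal.toReal_mono ENNReal.ofReal_ne_top hρH'le
    rwa [ENNReal.toReal_ofReal hθ.le] at this
  have hp'nn : 0 ≤ p' := ENNReal.toReal_nonneg
  -- the top slab with the same mass
  set P : EuclideanSpace ℝ (Fin d) → Prop := fun x => 1 - p' ≤ inner ℝ (b - 0) x with hP
  set P' : EuclideanSpace ℝ (Fin d) → Prop := fun x => 1 ≤ inner ℝ (b' - 0) x with hP'
  have hPm : MeasurableSet {x | P x} := measurableSet_le measurable_const (by fun_prop)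
  have hρH : ρ {x | P x} = ρ H' := by
    have hset : {x | P x} = {x : EuclideanSpace ℝ (Fin d) | 1 - p' ≤ x i₁} := by
      ext x
      show 1 - p' ≤ inner ℝ (b - 0) x ↔ _
      rw [hin0]
      rfl
    rw [hset]
    have h3 := mass_slab (d := d) (i₁ := i₁) (q := p') (by linarith)
    rw [← hρ] at h3
    rw [h3, hp', ENNReal.ofReal_toReal hfinH']
  -- the maps
  set T : EuclideanSpace ℝ (Fin d) → EuclideanSpace ℝ (Fin d) :=
    fun x => if 1 - p' ≤ inner ℝ (b - 0) x then b else 0 with hT
  set T' : EuclideanSpace ℝ (Fin d) → EuclideanSpace ℝ (Fin d) :=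
    fun x => if 1 ≤ inner ℝ (b' - 0) x then b' else 0 with hT'
  set T'' : EuclideanSpace ℝ (Fin d) → EuclideanSpace ℝ (Fin d) :=
    fun x => if 1 - p' ≤ inner ℝ (b - 0) x then b' else 0 with hT''
  have hTm : Measurable T := Measurable.ite hPm measurable_const measurable_const
  have hT'm : Measurable T' := Measurable.ite hH'm measurable_const measurable_const
  have hT''m : Measurable T'' := Measurable.ite hPm measurable_const measurable_const
  have hmapeq : ρ.map T'' = ρ.map T' := map_ite_eq ρ P P' hPm hH'm hρH b' 0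
  have hOptT : IsOptimalMap ρ (ρ.map T) T := isOptimal_two_point ρ 0 b (1 - p')
  have hOptT' : IsOptimalMap ρ (ρ.map T') T' := isOptimal_two_point ρ 0 b' 1
  have hball : ∀ x, T x ∈ Metric.closedBall (0 : EuclideanSpace ℝ (Fin d)) 2 := by
    intro x
    simp only [hT, mem_closedBall_zero_iff]
    split_ifs
    · rw [hnb]; norm_num
    · simp
  have hball' : ∀ x, T' x ∈ Metric.closedBall (0 : EuclideanSpace ℝ (Fin d)) 2 := by
    intro x
    simp only [hT', mem_closedBall_zero_iff]
    split_ifs
    · exact hnb'2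
    · simp
  have hYm : MeasurableSet (Metric.closedBall (0 : EuclideanSpace ℝ (Fin d)) 2)ᶜ :=
    Metric.isClosed_closedBall.measurableSet.compl
  refine ⟨ρ.map T, ρ.map T', T, T', Measure.isProbabilityMeasure_map hTm.aemeasurable,
    Measure.isProbabilityMeasure_map hT'm.aemeasurable, ?_, ?_, hOptT, hOptT', ?_, ?_⟩
  · rw [Measure.map_apply hTm hYm]
    have : T ⁻¹' (Metric.closedBall (0 : EuclideanSpace ℝ (Fin d)) 2)ᶜ = ∅ := by
      ext x
      simpa using hball x
    rw [this, measure_empty]
  · rw [Measure.map_apply hT'm hYm]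
    have : T' ⁻¹' (Metric.closedBall (0 : EuclideanSpace ℝ (Fin d)) 2)ᶜ = ∅ := by
      ext x
      simpa using hball' x
    rw [this, measure_empty]
  · -- lower bound for the L2 distance
    have hfm : Measurable (fun x => ENNReal.ofReal (‖T x - T' x‖ ^ 2)) := by
      apply ENNReal.measurable_ofReal.comp
      exact ((hTm.sub hT'm).norm).pow_const 2
    have hgoal : ∀ B : Set (EuclideanSpace ℝ (Fin d)), B ⊆ cube d →
        volume B = ENNReal.ofReal (θ / 32) →
        (∀ x ∈ B, 1 ≤ ‖T x - T' x‖) →
        ENNReal.ofReal (θ / 32) ≤ ∫⁻ x, ENNReal.ofReal (‖T x - T' x‖ ^ 2) ∂ρ := by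
      intro B hBK hBvol hBge
      have h1 : ρ B ≤ ρ {x | 1 ≤ ENNReal.ofReal (‖T x - T' x‖ ^ 2)} := by
        apply measure_mono
        intro x hx
        have := hBge x hx
        show 1 ≤ ENNReal.ofReal (‖T x - T' x‖ ^ 2)
        rw [← ENNReal.ofReal_one]
        apply ENNReal.ofReal_le_ofReal
        nlinarith
      have h2 : volume B ≤ ρ B := by
        rw [hρK]
        have := Measure.le_restrict_apply (μ := volume) (cube d) B
        rwa [Set.inter_eq_left.mpr hBK] at this
      have h3 := mul_meas_ge_le_lintegral (μ := ρ) hfm 1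
      rw [one_mul] at h3
      calc ENNReal.ofReal (θ / 32) = volume B := hBvol.symm
        _ ≤ ρ B := h2
        _ ≤ _ := h1
        _ ≤ _ := h3
    have hprod : ENNReal.ofReal (1 / 8) * ENNReal.ofReal (θ / 4) = ENNReal.ofReal (θ / 32) := by
      rw [← ENNReal.ofReal_mul (by norm_num)]
      congr 1
      ring
    by_cases hcase : 1 - p' ≤ 1 - θ / 2
    · -- a box in the slab and outside the triangle
      refine hgoal {x | ∀ i,
        (Function.update (Function.update (0 : Fin d → ℝ) i₀ 0) i₁ (1 - θ / 2)) i ≤ x i ∧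
        x i ≤ (Function.update (Function.update (1 : Fin d → ℝ) i₀ (1 / 8)) i₁ (1 - θ / 4)) i}
        ?_ ?_ ?_
      · intro x hx i
        have h := hx i
        by_cases hi1 : i = i₁
        · subst hi1
          simp only [Function.update_self] at h
          constructor <;> linarith [h.1, h.2]
        · by_cases hi0 : i = i₀
          · subst hi0
            simp only [Function.update_of_ne hi1, Function.update_self] at h
            constructor <;> linarith [h.1, h.2]
          · simp only [Function.update_of_ne hi1, Function.update_of_ne hi0] at h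
            simpa using h
      · rw [volume_box_two hne]
        rw [← hprod]
        congr 2 <;> ring
      · intro x hx
        have h1 := hx i₁
        simp only [Function.update_self] at h1
        have h0 := hx i₀
        simp only [Function.update_of_ne hne, Function.update_self] at h0
        have hTx : T x = b := by
          simp only [hT]
          rw [if_pos]
          rw [hin0]
          linarith [h1.1]
        have hT'x : T' x = 0 := by
          simp only [hT']
          rw [if_neg]
          rw [hin1]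
          push Not
          nlinarith [h1.2, h0.2]
        rw [hTx, hT'x, sub_zero, hnb]
    · -- a box in the triangle and below the slab
      push Not at hcase
      refine hgoal {x | ∀ i,
        (Function.update (Function.update (0 : Fin d → ℝ) i₀ (7 / 8)) i₁ (1 - 3 * θ / 4)) i ≤ x i ∧
        x i ≤ (Function.update (Function.update (1 : Fin d → ℝ) i₀ 1) i₁ (1 - θ / 2)) i}
        ?_ ?_ ?_
      · intro x hx i
        have h := hx i
        by_cases hi1 : i = i₁
        · subst hi1
          simp only [Function.update_self] at h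
          constructor <;> linarith [h.1, h.2]
        · by_cases hi0 : i = i₀
          · subst hi0
            simp only [Function.update_of_ne hi1, Function.update_self] at h
            constructor <;> linarith [h.1, h.2]
          · simp only [Function.update_of_ne hi1, Function.update_of_ne hi0] at h
            simpa using h
      · rw [volume_box_two hne]
        rw [← hprod]
        congr 2 <;> ring
      · intro x hx
        have h1 := hx i₁
        simp only [Function.update_self] at h1
        have h0 := hx i₀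
        simp only [Function.update_of_ne hne, Function.update_self] at h0
        have hTx : T x = 0 := by
          simp only [hT]
          rw [if_neg]
          rw [hin0]
          push Not
          linarith [h1.2]
        have hT'x : T' x = b' := by
          simp only [hT']
          rw [if_pos]
          rw [hin1]
          nlinarith [h1.1, h0.1]
        rw [hTx, hT'x, zero_sub, norm_neg]
        exact hnb'1
  · -- the coupling
    set π : Measure (EuclideanSpace ℝ (Fin d) × EuclideanSpace ℝ (Fin d)) :=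
      ρ.map (fun x => (T x, T'' x)) with hπ
    have hpair : Measurable (fun x => (T x, T'' x)) := hTm.prodMk hT''m
    have hm1 : π.map Prod.fst = ρ.map T := by
      rw [hπ, Measure.map_map measurable_fst hpair]
      rfl
    have hm2 : π.map Prod.snd = ρ.map T' := by
      rw [hπ, Measure.map_map measurable_snd hpair, ← hmapeq]
      rfl
    refine (iInf₂_le π ⟨hm1, hm2⟩).trans ?_
    have hcm : Measurable (fun z : EuclideanSpace ℝ (Fin d) × EuclideanSpace ℝ (Fin d) =>
        ENNReal.ofReal (‖z.1 - z.2‖ ^ 2)) := by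
      apply ENNReal.measurable_ofReal.comp
      exact ((measurable_fst.sub measurable_snd).norm).pow_const 2
    rw [hπ, lintegral_map hcm hpair]
    have hle : ∀ x, ENNReal.ofReal (‖T x - T'' x‖ ^ 2) ≤
        {x | P x}.indicator (fun _ => ENNReal.ofReal (θ ^ 2)) x := by
      intro x
      by_cases hx : P x
      · have hx' : 1 - p' ≤ inner ℝ (b - 0) x := hx
        have e1 : T x = b := by simp only [hT]; rw [if_pos hx']
        have e2 : T'' x = b' := by simp only [hT'']; rw [if_pos hx']
        rw [Set.indicator_of_mem (show x ∈ {x | P x} from hx), e1, e2, hbb']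
      · have hx' : ¬ 1 - p' ≤ inner ℝ (b - 0) x := hx
        have e1 : T x = 0 := by simp only [hT]; rw [if_neg hx']
        have e2 : T'' x = 0 := by simp only [hT'']; rw [if_neg hx']
        rw [Set.indicator_of_notMem (show x ∉ {x | P x} from hx), e1, e2]
        simp
    calc ∫⁻ x, ENNReal.ofReal (‖T x - T'' x‖ ^ 2) ∂ρ
        ≤ ∫⁻ x, {x | P x}.indicator (fun _ => ENNReal.ofReal (θ ^ 2)) x ∂ρ := lintegral_mono hle
      _ = ENNReal.ofReal (θ ^ 2) * ρ {x | P x} := lintegral_indicator_const hPm _
      _ ≤ ENNReal.ofReal (θ ^ 2) * ENNReal.ofReal θ := by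
          gcongr
          rw [hρH]
          exact hρH'le
      _ = ENNReal.ofReal (θ ^ 3) := by
          rw [← ENNReal.ofReal_mul (by positivity)]
          congr 1


/-- No exponent above `1/3` is admissible, in any dimension `d ≥ 2`. -/
theorem not_admissible (hd : 2 ≤ d) {α : ℝ} (hα : 1 / 3 < α) : ¬ Admissible d α := by
  intro hadm
  obtain ⟨C, hC⟩ := hadm (cube d) isCompact_cube convex_cube interior_cube_nonempty
    (Metric.closedBall 0 2) (isCompact_closedBall 0 2) ⟨0, by simp⟩
  -- exponents
  set γ : ℝ := 3 * α / 2 - 1 / 2 with hγ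
  have hγpos : 0 < γ := by rw [hγ]; linarith
  have hα0 : 0 < α := by linarith
  set κ : ℝ := (1 / 32 : ℝ) ^ (1 / 2 : ℝ) with hκ
  have hκpos : 0 < κ := by rw [hκ]; positivity
  have hκ1 : κ ≤ 1 := by
    rw [hκ]
    exact Real.rpow_le_one (by norm_num) (by norm_num) (by norm_num)
  have hCnn : (0 : ℝ) ≤ C := C.coe_nonneg
  set s : ℝ := κ / (2 * ((C : ℝ) + 1)) with hs
  have hspos : 0 < s := by rw [hs]; positivity
  have hs1 : s ≤ 1 := by
    rw [hs, div_le_one (by positivity)]
    nlinarith
  set θ : ℝ := s ^ (1 / γ) with hθdef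
  have hθ : 0 < θ := by rw [hθdef]; positivity
  have hθ1 : θ ≤ 1 := by
    rw [hθdef]
    exact Real.rpow_le_one hspos.le hs1 (by positivity)
  have hθγ : θ ^ γ = s := by
    rw [hθdef, ← Real.rpow_mul hspos.le, one_div, inv_mul_cancel₀ hγpos.ne', Real.rpow_one]
  obtain ⟨μ, ν, Tμ, Tν, hμ, hν, hμY, hνY, hTμ, hTν, hlow, hup⟩ := family hd hθ hθ1
  have hmain := hC μ ν hμ hν hμY hνY Tμ Tν hTμ hTν
  -- from the lower bound on the L2 distance and the upper bound on W2
  have hL : ENNReal.ofReal ((θ / 32) ^ (1 / 2 : ℝ)) ≤ L2Dist (uniformProb (cube d)) Tμ Tν := by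
    rw [L2Dist, ← ENNReal.ofReal_rpow_of_pos (by positivity)]
    exact ENNReal.rpow_le_rpow hlow (by norm_num)
  have hW : W2 μ ν ^ α ≤ ENNReal.ofReal (((θ ^ 3) ^ (1 / 2 : ℝ)) ^ α) := by
    rw [W2, ← ENNReal.ofReal_rpow_of_pos (by positivity),
      ← ENNReal.ofReal_rpow_of_pos (by positivity)]
    apply ENNReal.rpow_le_rpow _ hα0.le
    exact ENNReal.rpow_le_rpow hup (by norm_num)
  have hreal : (θ / 32) ^ (1 / 2 : ℝ) ≤ (C : ℝ) * ((θ ^ 3) ^ (1 / 2 : ℝ)) ^ α := by
    have h1 : ENNReal.ofReal ((θ / 32) ^ (1 / 2 : ℝ)) ≤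
        ENNReal.ofReal ((C : ℝ) * ((θ ^ 3) ^ (1 / 2 : ℝ)) ^ α) := by
      rw [ENNReal.ofReal_mul hCnn, ENNReal.ofReal_coe_nnreal]
      calc _ ≤ _ := hL
        _ ≤ _ := hmain
        _ ≤ _ := by gcongr
    exact (ENNReal.ofReal_le_ofReal_iff (by positivity)).mp h1
  -- simplify the powers
  have e1 : (θ / 32) ^ (1 / 2 : ℝ) = κ * θ ^ (1 / 2 : ℝ) := by
    rw [hκ, ← Real.mul_rpow (by norm_num) hθ.le]
    congr 1
    ring
  have e2 : ((θ ^ 3) ^ (1 / 2 : ℝ)) ^ α = θ ^ (1 / 2 : ℝ) * θ ^ γ := by
    rw [← Real.rpow_add hθ, ← Real.rpow_natCast θ 3, ← Real.rpow_mul hθ.le, ← Real.rpow_mul hθ.le]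
    congr 1
    rw [hγ]
    push_cast
    ring
  rw [e1, e2, hθγ] at hreal
  have hθ12 : 0 < θ ^ (1 / 2 : ℝ) := by positivity
  have h3 : κ ≤ (C : ℝ) * s := by
    have : θ ^ (1 / 2 : ℝ) * κ ≤ θ ^ (1 / 2 : ℝ) * ((C : ℝ) * s) := by nlinarith
    exact le_of_mul_le_mul_left this hθ12
  have h4 : (C : ℝ) * s < κ := by
    rw [hs]
    have hpos : 0 < 2 * ((C : ℝ) + 1) := by positivity
    rw [mul_div_assoc', div_lt_iff₀ hpos]
    nlinarith
  linarith

end Vale.Agent.Lib.P074
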